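import Mathlib
import Vale.Agent.Lib.P084.Thm.Main

open Metric

/-- **Tingley's problem in finite dimension.** Let `X` be a real normed space of finite dimension
at least three, with an arbitrary norm.  For every real normed space `Y`, every isometric bijection
of the unit sphere of `X` onto the unit sphere of `Y` is the restriction of a real-linear isometry
of `X` onto `Y`. -/
theorem Vale.Agent.Results.P084.A000All.result
    {X Y : Type*} [NormedAddCommGroup X] [NormedSpace ℝ X] [NormedAddCommGroup Y]
    [NormedSpace ℝ Y] [FiniteDimensional ℝ X]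
    (hdim : 3 ≤ Module.finrank ℝ X)
    (f : sphere (0 : X) 1 ≃ᵢ sphere (0 : Y) 1) :
    ∃ T : X ≃ₗᵢ[ℝ] Y, ∀ x : sphere (0 : X) 1, T x = f x :=
  Vale.Agent.Lib.P084.Thm.mazur_ulam hdim f
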