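import Mathlib
import Vale.Agent.Lib.P084.Cartan.Main

open Metric

/-- **Tingley's problem for norms with rough extreme points.** Let `X` be a real normed space of
finite dimension at least two such that every extreme point of the closed unit ball is a limit of
unit vectors `p` at which the second symmetric difference of the norm is not `O(‖z‖ ^ 2)`.  Then
every isometric bijection of the unit sphere of `X` onto the unit sphere of any real normed space
`Y` is the restriction of a real-linear isometry of `X` onto `Y`. -/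
theorem Vale.Agent.Results.P084.A000Extreme.result
    {X Y : Type*} [NormedAddCommGroup X] [NormedSpace ℝ X] [NormedAddCommGroup Y]
    [NormedSpace ℝ Y] [FiniteDimensional ℝ X]
    (hdim : 2 ≤ Module.finrank ℝ X)
    (hdense : ∀ e ∈ (closedBall (0 : X) 1).extremePoints ℝ, ∀ ρ : ℝ, 0 < ρ →
      ∃ p : X, ‖p‖ = 1 ∧ ‖p - e‖ < ρ ∧
        ∀ C δ : ℝ, 0 < δ → ∃ z : X, ‖z‖ < δ ∧ C * ‖z‖ ^ 2 < ‖p + z‖ + ‖p - z‖ - 2)
    (f : sphere (0 : X) 1 ≃ᵢ sphere (0 : Y) 1) :
    ∃ T : X ≃ₗᵢ[ℝ] Y, ∀ x : sphere (0 : X) 1, T x = f x :=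
  Vale.Agent.Lib.P084.Cartan.extreme_rough hdim hdense f
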