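import Mathlib
import Vale.Agent.Lib.P084.Str.Main

open Metric

/-- **Tingley's problem for strictly convex norms.** Let `X` be a finite-dimensional strictly
convex real normed space of dimension at least three and let `Y` be any real normed space.  Every
isometric bijection of the unit sphere of `X` onto the unit sphere of `Y` is the restriction of a
real-linear isometry of `X` onto `Y`. -/
theorem Vale.Agent.Results.P084.A00StrictAll.result
    {X Y : Type*} [NormedAddCommGroup X] [NormedSpace ℝ X] [NormedAddCommGroup Y]
    [NormedSpace ℝ Y] [FiniteDimensional ℝ X] [StrictConvexSpace ℝ X]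
    (hdim : 3 ≤ Module.finrank ℝ X)
    (f : sphere (0 : X) 1 ≃ᵢ sphere (0 : Y) 1) :
    ∃ T : X ≃ₗᵢ[ℝ] Y, ∀ x : sphere (0 : X) 1, T x = f x :=
  Vale.Agent.Lib.P084.Str.strict_all hdim f
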