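import Mathlib
import Vale.Agent.Lib.P084.Rig.AllStrict

open Metric

/-- Every finite-dimensional strictly convex real normed space of dimension at least three has the
Mazur-Ulam property: an isometric bijection of its unit sphere onto the unit sphere of any real
normed space is the restriction of a linear isometry onto that space. -/
theorem Vale.Agent.Results.P084.A0AllStrict.result
    {X Y : Type*} [NormedAddCommGroup X] [NormedSpace ℝ X] [NormedAddCommGroup Y]
    [NormedSpace ℝ Y] [FiniteDimensional ℝ X] [StrictConvexSpace ℝ X]
    (hdim : 3 ≤ Module.finrank ℝ X) (f : sphere (0 : X) 1 ≃ᵢ sphere (0 : Y) 1) :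
    ∃ T : X ≃ₗᵢ[ℝ] Y, ∀ x : sphere (0 : X) 1, T x = f x :=
  Vale.Agent.Lib.P084.strict_all_extends hdim f
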