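import Mathlib
import Vale.Agent.Lib.P084.Corner.Final

open Metric

/-- Let `X` be a finite-dimensional real normed space in which the points `z` where the norm is
differentiable and whose derivative exposes `z` are dense.  If at some unit vector of `X` the norm
is not pointwise `C^{1,1}`, then every isometric bijection of the unit sphere of `X` onto the unit
sphere of a real normed space `Y` is the restriction of a linear isometry of `X` onto `Y`. -/
theorem Vale.Agent.Results.P084.A0RoughDense.result
    {X Y : Type*} [NormedAddCommGroup X] [NormedSpace ℝ X] [NormedAddCommGroup Y]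
    [NormedSpace ℝ Y] [FiniteDimensional ℝ X]
    (hGood : Dense {z : X | Vale.Agent.Lib.P084.GoodDir z}) {x₀ : X} (hx₀ : ‖x₀‖ = 1)
    (hR : ¬(Vale.Agent.Lib.P084.Dn x₀ ∧ Vale.Agent.Lib.P084.Rate x₀))
    (f : sphere (0 : X) 1 ≃ᵢ sphere (0 : Y) 1) :
    ∃ T : X ≃ₗᵢ[ℝ] Y, ∀ x : sphere (0 : X) 1, T x = f x :=
  Vale.Agent.Lib.P084.sphere_extends_of_rough hGood hx₀ hR f
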