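import Mathlib
import Vale.Agent.Lib.P084.Corner.Final

open Metric

/-- Let `X` be a finite-dimensional strictly convex real normed space and let `f` be an isometric
bijection of the unit sphere of `X` onto the unit sphere of a real normed space `Y`.  If at some
unit vector of `X` or of `Y` the norm is not pointwise `C^{1,1}`, that is, either it is not
differentiable there or its derivative is not Lipschitz at that point along the differentiability
points, then `f` is the restriction of a linear isometry of `X` onto `Y`. -/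
theorem Vale.Agent.Results.P084.A0RoughStrict.result
    {X Y : Type*} [NormedAddCommGroup X] [NormedSpace ℝ X] [NormedAddCommGroup Y]
    [NormedSpace ℝ Y] [FiniteDimensional ℝ X] [StrictConvexSpace ℝ X]
    (f : sphere (0 : X) 1 ≃ᵢ sphere (0 : Y) 1)
    (hR : (∃ x₀ : X, ‖x₀‖ = 1 ∧ ¬(Vale.Agent.Lib.P084.Dn x₀ ∧ Vale.Agent.Lib.P084.Rate x₀)) ∨
      (∃ y₀ : Y, ‖y₀‖ = 1 ∧ ¬(Vale.Agent.Lib.P084.Dn y₀ ∧ Vale.Agent.Lib.P084.Rate y₀))) :
    ∃ T : X ≃ₗᵢ[ℝ] Y, ∀ x : sphere (0 : X) 1, T x = f x :=
  Vale.Agent.Lib.P084.strict_extends_of_rough f hR
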