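import Mathlib
import Vale.Agent.Lib.P084.Loc.CurvedExists

open Metric

/-- Tingley's problem has a positive answer for every real normed space `X` of finite dimension at
least three whose norm is of class `C^2` away from the origin: every isometric bijection of the unit
sphere of `X` onto the unit sphere of any real normed space `Y` extends to a linear isometry. No
curvature condition and no condition on `Y` is assumed. -/
theorem Vale.Agent.Results.P084.A2NormC2.result
    {X Y : Type*} [NormedAddCommGroup X] [NormedSpace ℝ X] [NormedAddCommGroup Y]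
    [NormedSpace ℝ Y] [FiniteDimensional ℝ X] (hdim : 3 ≤ Module.finrank ℝ X)
    (hC2 : ∀ z : X, z ≠ 0 → ContDiffAt ℝ 2 (fun z : X => ‖z‖) z)
    (f : sphere (0 : X) 1 ≃ᵢ sphere (0 : Y) 1) :
    ∃ T : X ≃ₗᵢ[ℝ] Y, ∀ x : sphere (0 : X) 1, T x = f x :=
  Vale.Agent.Lib.P084.Loc.normC2_mazurUlam hdim hC2 f
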