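import Mathlib
import Vale.Agent.Lib.P084.Loc.Main2

open Metric

/-- Tingley's problem has a positive answer in dimension at least three as soon as the norm has one
point of class `C^2` with positive curvature and no open piece of the unit sphere is ruled by
parallel segments: every isometric bijection of the unit sphere of `X` onto the unit sphere of any
real normed space extends to a linear isometry. No other regularity is assumed on either norm. -/
theorem Vale.Agent.Results.P084.ACurvedNoCylinder.result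
    {X Y : Type*} [NormedAddCommGroup X] [NormedSpace ℝ X] [NormedAddCommGroup Y]
    [NormedSpace ℝ Y] [FiniteDimensional ℝ X] (hdim : 3 ≤ Module.finrank ℝ X)
    (hNC : ∀ k : X, k ≠ 0 → ∀ w₀ : X, ‖w₀‖ = 1 → ∀ ε > 0, ∃ w : X, ‖w‖ = 1 ∧ ‖w - w₀‖ < ε ∧
      ∃ t ∈ Set.Icc (0 : ℝ) 1, ‖w - t • k‖ ≠ 1)
    {x₀ : X} (hC2 : ContDiffAt ℝ 2 (fun z : X => ‖z‖) x₀)
    (hpos : ∀ u : X, u ≠ 0 → fderiv ℝ (fun z : X => ‖z‖) x₀ u = 0 →
      0 < fderiv ℝ (fderiv ℝ (fun z : X => ‖z‖)) x₀ u u)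
    (f : sphere (0 : X) 1 ≃ᵢ sphere (0 : Y) 1) :
    ∃ T : X ≃ₗᵢ[ℝ] Y, ∀ x : sphere (0 : X) 1, T x = f x :=
  Vale.Agent.Lib.P084.Loc.curved_point_noCylinder hdim hNC hC2 hpos f
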