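import Mathlib
import Vale.Agent.Lib.P084.StrictCase

open Metric

/-- Tingley's problem has a positive answer for strictly convex norms of class `C^2` in dimension
at least three: every isometric bijection of the unit sphere of `X` onto the unit sphere of any real
normed space extends to a linear isometry. -/
theorem Vale.Agent.Results.P084.AStrictConvex.result
    {X Y : Type*} [NormedAddCommGroup X] [NormedSpace ℝ X] [NormedAddCommGroup Y]
    [NormedSpace ℝ Y] [FiniteDimensional ℝ X] [StrictConvexSpace ℝ X]
    (hdim : 3 ≤ Module.finrank ℝ X)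
    (hsmooth : ∀ x : X, x ≠ 0 → ContDiffAt ℝ 2 (fun z : X => ‖z‖) x)
    (f : sphere (0 : X) 1 ≃ᵢ sphere (0 : Y) 1) :
    ∃ T : X ≃ₗᵢ[ℝ] Y, ∀ x : sphere (0 : X) 1, T x = f x :=
  Vale.Agent.Lib.P084.strict_extends hdim hsmooth f
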