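import Mathlib
import Vale.Agent.Lib.P084.Smooth

open Metric

/-- Tingley's problem has a positive answer for `C^2` norms of positive curvature in dimension at
least three: if the second derivative of the norm at `x` is positive on the nonzero directions
killed by the first derivative, for all `x` in a dense set, then every isometric bijection of the
unit sphere of `X` onto the unit sphere of any real normed space extends to a linear isometry. -/
theorem Vale.Agent.Results.P084.AStrongConvex.result
    {X Y : Type*} [NormedAddCommGroup X] [NormedSpace ℝ X] [NormedAddCommGroup Y]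
    [NormedSpace ℝ Y] [FiniteDimensional ℝ X] (hdim : 3 ≤ Module.finrank ℝ X)
    (hsmooth : ∀ x : X, x ≠ 0 → ContDiffAt ℝ 2 (fun z : X => ‖z‖) x)
    (hconv : Dense {x : X | ∀ u, u ≠ 0 → fderiv ℝ (fun z : X => ‖z‖) x u = 0 →
      0 < fderiv ℝ (fderiv ℝ (fun z : X => ‖z‖)) x u u})
    (f : sphere (0 : X) 1 ≃ᵢ sphere (0 : Y) 1) :
    ∃ T : X ≃ₗᵢ[ℝ] Y, ∀ x : sphere (0 : X) 1, T x = f x :=
  Vale.Agent.Lib.P084.smooth_extends hdim hsmooth hconv f
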