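import Mathlib
import Vale.Agent.Lib.P084.BaseNorm

open Metric

/-- Tingley's problem has a positive answer for finite-dimensional base-norm spaces: `φ` is a
linear functional, and the closed unit ball is the convex hull of its two sections by the
hyperplanes `φ = 1` and `φ = -1`. -/
theorem Vale.Agent.Results.P084.BaseNorm.result
    {X Y : Type*} [NormedAddCommGroup X] [NormedSpace ℝ X] [NormedAddCommGroup Y]
    [NormedSpace ℝ Y] [FiniteDimensional ℝ X] [Nontrivial X] (φ : StrongDual ℝ X)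
    (hB : closedBall (0 : X) 1 = convexHull ℝ
      ({x : X | ‖x‖ ≤ 1 ∧ φ x = 1} ∪ {x : X | ‖x‖ ≤ 1 ∧ φ x = -1}))
    (f : sphere (0 : X) 1 ≃ᵢ sphere (0 : Y) 1) :
    ∃ T : X ≃ₗᵢ[ℝ] Y, ∀ x : sphere (0 : X) 1, T x = f x :=
  Vale.Agent.Lib.P084.base_extends φ hB f
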