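import Mathlib
import Vale.Agent.Lib.P084.Far.Main

open Metric

/-- Tingley's problem has a positive answer for every finite-dimensional strictly convex normed
space `X` whose norm is not differentiable at one nonzero point. Nothing is assumed on the target
`Y`. -/
theorem Vale.Agent.Results.P084.CornerStrict.result
    {X Y : Type*} [NormedAddCommGroup X] [NormedSpace ℝ X] [NormedAddCommGroup Y]
    [NormedSpace ℝ Y] [FiniteDimensional ℝ X] [StrictConvexSpace ℝ X]
    {x₀ : X} (hx₀ : x₀ ≠ 0) (hd : ¬ DifferentiableAt ℝ (fun z : X => ‖z‖) x₀)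
    (f : sphere (0 : X) 1 ≃ᵢ sphere (0 : Y) 1) :
    ∃ T : X ≃ₗᵢ[ℝ] Y, ∀ x : sphere (0 : X) 1, T x = f x :=
  Vale.Agent.Lib.P084.Far.corner_strict hx₀ hd f
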