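import Mathlib
import Vale.Agent.Lib.P084.Far.Main

open Metric

/-- Tingley's problem has a positive answer for a finite-dimensional normed space `X` of any
dimension in which (i) the vectors `w` at which the norm is Frechet differentiable and whose
derivative attains the value `‖w‖` on the sphere of radius `‖w‖` only at `w` are dense, and
(ii) at one unit vector `x₀` the second symmetric difference `‖x₀ + z‖ + ‖x₀ - z‖ - 2` of the norm
is not bounded by any `C ‖z‖ ^ 2` near `z = 0`: a corner or a point of infinite curvature.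
Nothing is assumed on the target `Y`. -/
theorem Vale.Agent.Results.P084.FarDense.result
    {X Y : Type*} [NormedAddCommGroup X] [NormedSpace ℝ X] [NormedAddCommGroup Y]
    [NormedSpace ℝ Y] [FiniteDimensional ℝ X]
    (hE : Dense {w : X | DifferentiableAt ℝ (fun z : X => ‖z‖) w ∧
      ∀ w' : X, ‖w'‖ = ‖w‖ → fderiv ℝ (fun z : X => ‖z‖) w w' = ‖w‖ → w' = w})
    {x₀ : X} (hx₀ : ‖x₀‖ = 1)
    (hR : ∀ C δ : ℝ, 0 < δ → ∃ z : X, ‖z‖ < δ ∧ C * ‖z‖ ^ 2 < ‖x₀ + z‖ + ‖x₀ - z‖ - 2)
    (f : sphere (0 : X) 1 ≃ᵢ sphere (0 : Y) 1) :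
    ∃ T : X ≃ₗᵢ[ℝ] Y, ∀ x : sphere (0 : X) 1, T x = f x :=
  Vale.Agent.Lib.P084.Far.far_extends hE hx₀ hR f
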