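import Mathlib
import Vale.Agent.Lib.P084.Far.Main

open Metric

/-- Tingley's problem has a positive answer for every finite-dimensional strictly convex normed
space `X` of any dimension whose norm fails to be of class `C^{1,1}` at one point: at one unit
vector `x₀` the second symmetric difference `‖x₀ + z‖ + ‖x₀ - z‖ - 2` is not bounded by any
`C ‖z‖ ^ 2` near `z = 0`. Nothing is assumed on the target `Y`. -/
theorem Vale.Agent.Results.P084.FarStrict.result
    {X Y : Type*} [NormedAddCommGroup X] [NormedSpace ℝ X] [NormedAddCommGroup Y]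
    [NormedSpace ℝ Y] [FiniteDimensional ℝ X] [StrictConvexSpace ℝ X]
    {x₀ : X} (hx₀ : ‖x₀‖ = 1)
    (hR : ∀ C δ : ℝ, 0 < δ → ∃ z : X, ‖z‖ < δ ∧ C * ‖z‖ ^ 2 < ‖x₀ + z‖ + ‖x₀ - z‖ - 2)
    (f : sphere (0 : X) 1 ≃ᵢ sphere (0 : Y) 1) :
    ∃ T : X ≃ₗᵢ[ℝ] Y, ∀ x : sphere (0 : X) 1, T x = f x :=
  Vale.Agent.Lib.P084.Far.far_strict hx₀ hR f
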