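import Mathlib
import Vale.Agent.Lib.P084.L1Sum

open Metric

/-- Tingley's problem has a positive answer for `ℓ_1`-sums of two nonzero finite-dimensional real
normed spaces: `WithLp 1 (Z × W)` carries the norm `‖z‖ + ‖w‖`. -/
theorem Vale.Agent.Results.P084.L1Sum.result
    {Z W Y : Type*} [NormedAddCommGroup Z] [NormedSpace ℝ Z] [NormedAddCommGroup W]
    [NormedSpace ℝ W] [NormedAddCommGroup Y] [NormedSpace ℝ Y]
    [FiniteDimensional ℝ Z] [FiniteDimensional ℝ W] [Nontrivial Z] [Nontrivial W]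
    (f : sphere (0 : WithLp 1 (Z × W)) 1 ≃ᵢ sphere (0 : Y) 1) :
    ∃ T : WithLp 1 (Z × W) ≃ₗᵢ[ℝ] Y, ∀ x : sphere (0 : WithLp 1 (Z × W)) 1, T x = f x :=
  Vale.Agent.Lib.P084.l1_extends f
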