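import Mathlib
import Vale.Agent.Lib.P084.OrderUnit

open Metric

/-- Tingley's problem has a positive answer for finite-dimensional order-unit spaces: `e` is a unit
vector such that every unit vector `x` satisfies `‖x + e‖ = 2` or `‖x - e‖ = 2`. -/
theorem Vale.Agent.Results.P084.OrderUnit.result
    {X Y : Type*} [NormedAddCommGroup X] [NormedSpace ℝ X] [NormedAddCommGroup Y]
    [NormedSpace ℝ Y] [FiniteDimensional ℝ X] [Nontrivial X] {e : X} (he : ‖e‖ = 1)
    (hV : ∀ x : X, ‖x‖ = 1 → ‖x + e‖ = 2 ∨ ‖x - e‖ = 2)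
    (f : sphere (0 : X) 1 ≃ᵢ sphere (0 : Y) 1) :
    ∃ T : X ≃ₗᵢ[ℝ] Y, ∀ x : sphere (0 : X) 1, T x = f x :=
  Vale.Agent.Lib.P084.vertex_extends he hV f
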